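import Vale.Agent.P246.R2.H429.Defs2

/-! # P246: the Euler characteristic of a D(2) complex over a virtually abelian group is `≥ 0` -/

namespace Vale.Agent.P246.H998

open Vale.Agent.P246 Vale.Agent.P246.H429

/-- telescoping -/
theorem alt_sum (r z b : ℕ → ℤ) (h0 : r 0 = z 0) (hr : ∀ i, r (i + 1) = z (i + 1) + b i) (n : ℕ) :
    ∑ i ∈ Finset.range (n + 1), (-1 : ℤ) ^ i * r i =
      ∑ i ∈ Finset.range (n + 1), (-1 : ℤ) ^ i * (z i - b i) + (-1 : ℤ) ^ n * b n := by
  induction n with
  | zero => simp [h0]
  | succ n ih =>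
    rw [Finset.sum_range_succ, ih, Finset.sum_range_succ _ (n + 1), hr]
    ring

theorem sum_defect (t : ℕ → ℤ) (h : ∀ i, 0 ≤ t i) (h1 : t 1 = 0) (h3 : ∀ i, t (i + 3) = 0)
    (n : ℕ) : 0 ≤ ∑ i ∈ Finset.range n, (-1 : ℤ) ^ i * t i := by
  apply Finset.sum_nonneg
  intro i _
  match i with
  | 0 => simpa using h 0
  | 1 => simp [h1]
  | 2 => simpa using h 2
  | i + 3 => simp [h3]

theorem rank_add {S : Type} [CommRing S] [IsDomain S] {M N : Type} [AddCommGroup M]
    [AddCommGroup N] [Module S M] [Module S N] [Module.Finite S M] (f : M →ₗ[S] N) :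
    Module.finrank S (LinearMap.range f) + Module.finrank S (LinearMap.ker f) =
      Module.finrank S M := by
  rw [← Submodule.finrank_quotient_add_finrank (LinearMap.ker f),
    LinearEquiv.finrank_eq f.quotKerEquivRange]

theorem finrank_le {S : Type} [CommRing S] [IsDomain S] {M : Type} [AddCommGroup M]
    [Module S M] [Module.Finite S M] (A B : Submodule S M) (h : A ≤ B) :
    Module.finrank S A ≤ Module.finrank S B := by
  have hM : Module.rank S M < Cardinal.aleph0 := Module.rank_lt_aleph0 S M
  have hB : Module.rank S B < Cardinal.aleph0 := lt_of_le_of_lt (Submodule.rank_le B) hM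
  exact Cardinal.toNat_le_toNat (Submodule.rank_mono h) hB

theorem euler_nonneg {S : Type} [CommRing S] [IsDomain S] (X : ℕ → Type)
    [∀ i, AddCommGroup (X i)] [∀ i, Module S (X i)] [∀ i, Module.Finite S (X i)]
    (δ : ∀ i, X (i + 1) →ₗ[S] X i) (h2 : ∀ i x, δ i (δ (i + 1) x) = 0)
    (h1 : ∀ x : X 1, δ 0 x = 0 → ∃ y, δ 1 y = x)
    (h3 : ∀ i (x : X (i + 3)), δ (i + 2) x = 0 → ∃ y, δ (i + 3) y = x)
    (N : ℕ) (hN : ∀ i, N ≤ i → Subsingleton (X i)) :
    0 ≤ ∑ i ∈ Finset.range N, (-1 : ℤ) ^ i * (Module.finrank S (X i) : ℤ) := by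
  let z : ℕ → ℤ := fun i => match i with
    | 0 => (Module.finrank S (X 0) : ℤ)
    | i + 1 => (Module.finrank S (LinearMap.ker (δ i)) : ℤ)
  let b : ℕ → ℤ := fun i => (Module.finrank S (LinearMap.range (δ i)) : ℤ)
  rcases N with _ | n
  · simp
  rw [alt_sum (fun i => (Module.finrank S (X i) : ℤ)) z b rfl ?_ n]
  · have hb : b n = 0 := by
      have hs : Subsingleton (X (n + 1)) := hN (n + 1) le_rfl
      have : LinearMap.range (δ n) = ⊥ := by
        rw [eq_bot_iff]
        rintro _ ⟨x, rfl⟩
        rw [Subsingleton.elim x 0, map_zero]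
        exact Submodule.zero_mem _
      show (Module.finrank S (LinearMap.range (δ n)) : ℤ) = 0
      rw [this, finrank_bot]
      rfl
    rw [hb, mul_zero, add_zero]
    apply sum_defect (fun i => z i - b i)
    · intro i
      have key : b i ≤ z i := by
        match i with
        | 0 =>
          show (Module.finrank S (LinearMap.range (δ 0)) : ℤ) ≤ (Module.finrank S (X 0) : ℤ)
          have := finrank_le (LinearMap.range (δ 0)) ⊤ le_top
          rw [finrank_top] at this
          exact_mod_cast this
        | i + 1 =>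
          show (Module.finrank S (LinearMap.range (δ (i + 1))) : ℤ) ≤
            (Module.finrank S (LinearMap.ker (δ i)) : ℤ)
          have := finrank_le (LinearMap.range (δ (i + 1))) (LinearMap.ker (δ i)) (by
            rintro _ ⟨x, rfl⟩
            exact h2 i x)
          exact_mod_cast this
      show 0 ≤ z i - b i
      omega
    · have : LinearMap.range (δ 1) = LinearMap.ker (δ 0) := by
        apply le_antisymm
        · rintro _ ⟨x, rfl⟩
          exact h2 0 x
        · intro x hx
          exact h1 x hx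
      show (Module.finrank S (LinearMap.ker (δ 0)) : ℤ) -
        (Module.finrank S (LinearMap.range (δ 1)) : ℤ) = 0
      rw [this, sub_self]
    · intro i
      have : LinearMap.range (δ (i + 3)) = LinearMap.ker (δ (i + 2)) := by
        apply le_antisymm
        · rintro _ ⟨x, rfl⟩
          exact h2 (i + 2) x
        · intro x hx
          exact h3 i x hx
      show (Module.finrank S (LinearMap.ker (δ (i + 2))) : ℤ) -
        (Module.finrank S (LinearMap.range (δ (i + 3))) : ℤ) = 0
      rw [this, sub_self]
  · intro i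
    have := rank_add (δ i)
    show (Module.finrank S (X (i + 1)) : ℤ) = (Module.finrank S (LinearMap.ker (δ i)) : ℤ) +
      (Module.finrank S (LinearMap.range (δ i)) : ℤ)
    omega

theorem finrank_pow {S R : Type} [CommRing S] [IsDomain S] [AddCommGroup R] [Module S R]
    [Module.Finite S R] (n : ℕ) :
    Module.finrank S (Fin n → R) = n * Module.finrank S R := by
  induction n with
  | zero =>
    rw [zero_mul]
    exact Module.finrank_zero_of_subsingleton
  | succ n ih =>
    let f : (Fin (n + 1) → R) →ₗ[S] R := LinearMap.proj 0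
    have hr : LinearMap.range f = ⊤ := by
      rw [LinearMap.range_eq_top]
      intro x
      exact ⟨fun _ => x, rfl⟩
    let g : (Fin n → R) →ₗ[S] (Fin (n + 1) → R) :=
      { toFun := fun y => Fin.cons 0 y
        map_add' := by
          intro x y
          funext i
          refine Fin.cases ?_ ?_ i
          · simp
          · intro j; simp
        map_smul' := by
          intro s x
          funext i
          refine Fin.cases ?_ ?_ i
          · simp
          · intro j; simp }
    have hg : Function.Injective g := by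
      intro x y h
      funext i
      exact congrFun h i.succ
    have hk : LinearMap.range g = LinearMap.ker f := by
      apply le_antisymm
      · rintro _ ⟨x, rfl⟩
        rfl
      · intro x hx
        refine ⟨fun i => x i.succ, ?_⟩
        funext i
        refine Fin.cases ?_ ?_ i
        · exact (show x 0 = 0 from hx).symm
        · intro j; rfl
    have h1 := rank_add f
    have h2 : Module.finrank S (LinearMap.ker f) = n * Module.finrank S R := by
      rw [← hk, LinearMap.finrank_range_of_inj hg, ih]
    rw [hr, finrank_top, h2] at h1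
    rw [← h1]
    ring

theorem main {S R : Type} [CommRing S] [IsDomain S] [Ring R] [Module S R] [IsScalarTower S R R]
    [Module.Finite S R] (hpos : 0 < Module.finrank S R) (X : ℕ → Type)
    [∀ i, AddCommGroup (X i)] [∀ i, Module R (X i)] [∀ i, Module S (X i)]
    [∀ i, IsScalarTower S R (X i)]
    (δ : ∀ i, X (i + 1) →ₗ[R] X i) (h2 : ∀ i x, δ i (δ (i + 1) x) = 0)
    (h1 : ∀ x : X 1, δ 0 x = 0 → ∃ y, δ 1 y = x)
    (h3 : ∀ i (x : X (i + 3)), δ (i + 2) x = 0 → ∃ y, δ (i + 3) y = x)
    (c : ℕ → ℕ) (N : ℕ) (E : ∀ i, Nonempty (X i ≃ₗ[R] (Fin (c i) → R)))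
    (hc : ∀ i, N ≤ i → c i = 0) :
    0 ≤ ∑ i ∈ Finset.range N, (-1 : ℤ) ^ i * (c i : ℤ) := by
  have E' : ∀ i, Nonempty (X i ≃ₗ[S] (Fin (c i) → R)) := fun i =>
    ⟨(E i).some.restrictScalars S⟩
  have hf : ∀ i, Module.Finite S (X i) := fun i =>
    Module.Finite.equiv (E' i).some.symm
  have hr : ∀ i, Module.finrank S (X i) = c i * Module.finrank S R := fun i => by
    rw [LinearEquiv.finrank_eq (E' i).some, finrank_pow]
  have hs : ∀ i, N ≤ i → Subsingleton (X i) := by
    intro i hi
    have h0 := hc i hi
    have e := (E' i).some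
    rw [h0] at e
    exact e.toEquiv.subsingleton
  have key := euler_nonneg X (fun i => (δ i).restrictScalars S) h2 h1 h3 N hs
  have h4 : ∑ i ∈ Finset.range N, (-1 : ℤ) ^ i * (Module.finrank S (X i) : ℤ) =
      (∑ i ∈ Finset.range N, (-1 : ℤ) ^ i * (c i : ℤ)) * (Module.finrank S R : ℤ) := by
    rw [Finset.sum_mul]
    apply Finset.sum_congr rfl
    intro i _
    rw [hr i]
    push_cast
    ring
  rw [h4] at key
  have h5 : (0 : ℤ) < (Module.finrank S R : ℤ) := by exact_mod_cast hpos
  exact nonneg_of_mul_nonneg_left key h5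

/-- ROW LB. -/
theorem rowLB : ∀ (G : Type) [Group G] (h : ℕ),
    (∃ N : Subgroup G, N.FiniteIndex ∧ Nonempty (N ≃* Multiplicative (Fin h → ℤ))) →
    ∀ C : Cx (ZG G), IsD2Complex C → ∀ n : ℤ, HasEuler C n → 0 ≤ n := by
  rintro G _ h ⟨N, hN, ⟨e⟩⟩ C hC n ⟨c, M, hE, hc, rfl⟩
  let ι : Multiplicative (Fin h → ℤ) →* G := N.subtype.comp e.symm.toMonoidHom
  have hι : Function.Injective ι := fun a b hab =>
    e.symm.injective (Subtype.ext hab)
  let f : MonoidAlgebra ℤ (Multiplicative (Fin h → ℤ)) →+* ZG G :=
    MonoidAlgebra.mapDomainRingHom ℤ ι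
  have hfs : ∀ a z, f (MonoidAlgebra.single a z) = MonoidAlgebra.single (ι a) z := by
    intro a z
    exact MonoidAlgebra.mapDomain_single
  have hfi : Function.Injective f := MonoidAlgebra.mapDomain_injective hι
  let _ : Module (MonoidAlgebra ℤ (Multiplicative (Fin h → ℤ))) (ZG G) := Module.compHom (ZG G) f
  have _ : IsScalarTower (MonoidAlgebra ℤ (Multiplicative (Fin h → ℤ))) (ZG G) (ZG G) :=
    ⟨fun s r m => mul_assoc (f s) r m⟩
  let _ : ∀ i, Module (MonoidAlgebra ℤ (Multiplicative (Fin h → ℤ))) (C.X i) :=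
    fun i => Module.compHom (C.X i) f
  have _ : ∀ i, IsScalarTower (MonoidAlgebra ℤ (Multiplicative (Fin h → ℤ))) (ZG G) (C.X i) :=
    fun i => ⟨fun s r m => mul_smul (f s) r m⟩
  have hfin : Module.Finite (MonoidAlgebra ℤ (Multiplicative (Fin h → ℤ))) (ZG G) := by
    have _ : Finite (G ⧸ N) := Subgroup.finite_quotient_of_finiteIndex
    let t : G ⧸ N → ZG G := fun q => MonoidAlgebra.single (q.out)⁻¹ 1
    have hspan : Submodule.span (MonoidAlgebra ℤ (Multiplicative (Fin h → ℤ))) (Set.range t) =
        ⊤ := by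
      rw [eq_top_iff]
      rintro x -
      induction x using MonoidAlgebra.induction_linear with
      | zero => exact Submodule.zero_mem _
      | add x y hx hy => exact Submodule.add_mem _ hx hy
      | single g z =>
        have hq : ((QuotientGroup.mk g⁻¹ : G ⧸ N).out)⁻¹ * g⁻¹ ∈ N := by
          rw [← QuotientGroup.eq, QuotientGroup.out_eq']
        have h1 : MonoidAlgebra.single g z =
            (MonoidAlgebra.single (e ⟨_, N.inv_mem hq⟩) z :
              MonoidAlgebra ℤ (Multiplicative (Fin h → ℤ))) • t (QuotientGroup.mk g⁻¹) := by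
          show _ = f (MonoidAlgebra.single (e ⟨_, N.inv_mem hq⟩) z) *
            MonoidAlgebra.single ((QuotientGroup.mk g⁻¹ : G ⧸ N).out)⁻¹ 1
          rw [hfs, MonoidAlgebra.single_mul_single, mul_one]
          congr 1
          show g = (e.symm (e ⟨_, N.inv_mem hq⟩) : G) * _
          rw [e.symm_apply_apply]
          group
        rw [h1]
        exact Submodule.smul_mem _ _ (Submodule.subset_span ⟨_, rfl⟩)
    exact ⟨by rw [← hspan]; exact Submodule.fg_span (Set.finite_range t)⟩
  have hpos : 0 < Module.finrank (MonoidAlgebra ℤ (Multiplicative (Fin h → ℤ))) (ZG G) := by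
    let g : MonoidAlgebra ℤ (Multiplicative (Fin h → ℤ)) →ₗ[MonoidAlgebra ℤ
        (Multiplicative (Fin h → ℤ))] ZG G :=
      { toFun := f
        map_add' := map_add f
        map_smul' := fun a b => map_mul f a b }
    have h1 := finrank_le (LinearMap.range g) ⊤ le_top
    rw [finrank_top, LinearMap.finrank_range_of_inj (f := g) hfi, Module.finrank_self] at h1
    omega
  have D := IsD2Complex.data C hC
  exact main hpos (fun i => C.X i)
    (fun i => (HomologicalComplex.d C (i + 1) i).hom)
    (fun i x => by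
      have := HomologicalComplex.d_comp_d C (i + 2) (i + 1) i
      exact LinearMap.congr_fun (congrArg ModuleCat.Hom.hom this) x)
    (fun x hx => (exactAt_succ_iff C 0).1 D.homology_one x hx)
    (fun i x hx => (exactAt_succ_iff C (i + 2)).1 (D.homology_high (i + 3) (by omega)) x hx)
    c M hE hc

end Vale.Agent.P246.H998
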